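import Vale.Agent.P181.Six.F.B10

set_option maxRecDepth 100000
set_option maxHeartbeats 0

namespace Vale.Agent.P181.K

theorem cF10_0_0_eq : Ls.beq (Ls.beq Ent.beq) (chunk JF (JF.lev 10 22) bsF10 tF 0 0 20) cF10_0_0 = true := by
  decide +kernel

theorem cF10_7_0_eq : Ls.beq (Ls.beq Ent.beq) (chunk JF (JF.lev 10 22) bsF10 tF 7 0 20) cF10_7_0 = true := by
  decide +kernel

theorem cF10_10_0_eq : Ls.beq (Ls.beq Ent.beq) (chunk JF (JF.lev 10 22) bsF10 tF 10 0 20) cF10_10_0 = true := by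
  decide +kernel

theorem cF10_13_0_eq : Ls.beq (Ls.beq Ent.beq) (chunk JF (JF.lev 10 22) bsF10 tF 13 0 20) cF10_13_0 = true := by
  decide +kernel

theorem cF10_14_0_eq : Ls.beq (Ls.beq Ent.beq) (chunk JF (JF.lev 10 22) bsF10 tF 14 0 20) cF10_14_0 = true := by
  decide +kernel


end Vale.Agent.P181.K
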