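import Vale.Agent.P181.Six.F.B14

set_option maxRecDepth 100000
set_option maxHeartbeats 0

namespace Vale.Agent.P181.K

theorem cF14_3_0_eq : Ls.beq (Ls.beq Ent.beq) (chunk JF (JF.lev 14 39) bsF14 tF 3 0 20) cF14_3_0 = true := by
  decide +kernel

theorem cF14_6_0_eq : Ls.beq (Ls.beq Ent.beq) (chunk JF (JF.lev 14 39) bsF14 tF 6 0 20) cF14_6_0 = true := by
  decide +kernel

theorem cF14_12_0_eq : Ls.beq (Ls.beq Ent.beq) (chunk JF (JF.lev 14 39) bsF14 tF 12 0 20) cF14_12_0 = true := by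
  decide +kernel


end Vale.Agent.P181.K
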