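import Vale.Agent.P181.Six.F.B15

set_option maxRecDepth 100000
set_option maxHeartbeats 0

namespace Vale.Agent.P181.K

theorem cF15_0_0_eq : Ls.beq (Ls.beq Ent.beq) (chunk JF (JF.lev 15 42) bsF15 tF15 0 0 20) cF15_0_0 = true := by
  decide +kernel

theorem cF15_1_0_eq : Ls.beq (Ls.beq Ent.beq) (chunk JF (JF.lev 15 42) bsF15 tF15 1 0 20) cF15_1_0 = true := by
  decide +kernel

theorem cF15_6_0_eq : Ls.beq (Ls.beq Ent.beq) (chunk JF (JF.lev 15 42) bsF15 tF15 6 0 20) cF15_6_0 = true := by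
  decide +kernel

theorem cF15_5_0_eq : Ls.beq (Ls.beq Ent.beq) (chunk JF (JF.lev 15 42) bsF15 tF15 5 0 20) cF15_5_0 = true := by
  decide +kernel

theorem cF15_2_0_eq : Ls.beq (Ls.beq Ent.beq) (chunk JF (JF.lev 15 42) bsF15 tF15 2 0 20) cF15_2_0 = true := by
  decide +kernel

theorem cF15_3_0_eq : Ls.beq (Ls.beq Ent.beq) (chunk JF (JF.lev 15 42) bsF15 tF15 3 0 20) cF15_3_0 = true := by
  decide +kernel

theorem cF15_4_0_eq : Ls.beq (Ls.beq Ent.beq) (chunk JF (JF.lev 15 42) bsF15 tF15 4 0 20) cF15_4_0 = true := by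
  decide +kernel

theorem cF15_7_0_eq : Ls.beq (Ls.beq Ent.beq) (chunk JF (JF.lev 15 42) bsF15 tF15 7 0 20) cF15_7_0 = true := by
  decide +kernel

theorem cF15_8_0_eq : Ls.beq (Ls.beq Ent.beq) (chunk JF (JF.lev 15 42) bsF15 tF15 8 0 20) cF15_8_0 = true := by
  decide +kernel

theorem cF15_9_0_eq : Ls.beq (Ls.beq Ent.beq) (chunk JF (JF.lev 15 42) bsF15 tF15 9 0 20) cF15_9_0 = true := by
  decide +kernel

theorem cF15_10_0_eq : Ls.beq (Ls.beq Ent.beq) (chunk JF (JF.lev 15 42) bsF15 tF15 10 0 20) cF15_10_0 = true := by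
  decide +kernel

theorem cF15_11_0_eq : Ls.beq (Ls.beq Ent.beq) (chunk JF (JF.lev 15 42) bsF15 tF15 11 0 20) cF15_11_0 = true := by
  decide +kernel

theorem cF15_12_0_eq : Ls.beq (Ls.beq Ent.beq) (chunk JF (JF.lev 15 42) bsF15 tF15 12 0 20) cF15_12_0 = true := by
  decide +kernel

theorem cF15_13_0_eq : Ls.beq (Ls.beq Ent.beq) (chunk JF (JF.lev 15 42) bsF15 tF15 13 0 20) cF15_13_0 = true := by
  decide +kernel

theorem cF15_14_0_eq : Ls.beq (Ls.beq Ent.beq) (chunk JF (JF.lev 15 42) bsF15 tF15 14 0 20) cF15_14_0 = true := by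
  decide +kernel


end Vale.Agent.P181.K
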