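import Vale.Agent.P181.Six.F.B2

set_option maxRecDepth 100000
set_option maxHeartbeats 0

namespace Vale.Agent.P181.K

theorem cF2_1_0_eq : Ls.beq (Ls.beq Ent.beq) (chunk JF (JF.lev 2 1) bsF2 tF 1 0 20) cF2_1_0 = true := by
  decide +kernel

theorem cF2_2_0_eq : Ls.beq (Ls.beq Ent.beq) (chunk JF (JF.lev 2 1) bsF2 tF 2 0 20) cF2_2_0 = true := by
  decide +kernel

theorem cF2_0_0_eq : Ls.beq (Ls.beq Ent.beq) (chunk JF (JF.lev 2 1) bsF2 tF 0 0 20) cF2_0_0 = true := by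
  decide +kernel

theorem cF2_3_0_eq : Ls.beq (Ls.beq Ent.beq) (chunk JF (JF.lev 2 1) bsF2 tF 3 0 20) cF2_3_0 = true := by
  decide +kernel

theorem cF2_4_0_eq : Ls.beq (Ls.beq Ent.beq) (chunk JF (JF.lev 2 1) bsF2 tF 4 0 20) cF2_4_0 = true := by
  decide +kernel

theorem cF2_5_0_eq : Ls.beq (Ls.beq Ent.beq) (chunk JF (JF.lev 2 1) bsF2 tF 5 0 20) cF2_5_0 = true := by
  decide +kernel

theorem cF2_6_0_eq : Ls.beq (Ls.beq Ent.beq) (chunk JF (JF.lev 2 1) bsF2 tF 6 0 20) cF2_6_0 = true := by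
  decide +kernel

theorem cF2_7_0_eq : Ls.beq (Ls.beq Ent.beq) (chunk JF (JF.lev 2 1) bsF2 tF 7 0 20) cF2_7_0 = true := by
  decide +kernel

theorem cF2_8_0_eq : Ls.beq (Ls.beq Ent.beq) (chunk JF (JF.lev 2 1) bsF2 tF 8 0 20) cF2_8_0 = true := by
  decide +kernel

theorem cF2_9_0_eq : Ls.beq (Ls.beq Ent.beq) (chunk JF (JF.lev 2 1) bsF2 tF 9 0 20) cF2_9_0 = true := by
  decide +kernel

theorem cF2_10_0_eq : Ls.beq (Ls.beq Ent.beq) (chunk JF (JF.lev 2 1) bsF2 tF 10 0 20) cF2_10_0 = true := by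
  decide +kernel

theorem cF2_11_0_eq : Ls.beq (Ls.beq Ent.beq) (chunk JF (JF.lev 2 1) bsF2 tF 11 0 20) cF2_11_0 = true := by
  decide +kernel

theorem cF2_12_0_eq : Ls.beq (Ls.beq Ent.beq) (chunk JF (JF.lev 2 1) bsF2 tF 12 0 20) cF2_12_0 = true := by
  decide +kernel

theorem cF2_13_0_eq : Ls.beq (Ls.beq Ent.beq) (chunk JF (JF.lev 2 1) bsF2 tF 13 0 20) cF2_13_0 = true := by
  decide +kernel

theorem cF2_14_0_eq : Ls.beq (Ls.beq Ent.beq) (chunk JF (JF.lev 2 1) bsF2 tF 14 0 20) cF2_14_0 = true := by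
  decide +kernel


end Vale.Agent.P181.K
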