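import Vale.Agent.P181.Six.F.B3

set_option maxRecDepth 100000
set_option maxHeartbeats 0

namespace Vale.Agent.P181.K

theorem cF3_2_0_eq : Ls.beq (Ls.beq Ent.beq) (chunk JF (JF.lev 3 2) bsF3 tF 2 0 20) cF3_2_0 = true := by
  decide +kernel

theorem cF3_1_0_eq : Ls.beq (Ls.beq Ent.beq) (chunk JF (JF.lev 3 2) bsF3 tF 1 0 20) cF3_1_0 = true := by
  decide +kernel

theorem cF3_0_0_eq : Ls.beq (Ls.beq Ent.beq) (chunk JF (JF.lev 3 2) bsF3 tF 0 0 20) cF3_0_0 = true := by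
  decide +kernel

theorem cF3_3_0_eq : Ls.beq (Ls.beq Ent.beq) (chunk JF (JF.lev 3 2) bsF3 tF 3 0 20) cF3_3_0 = true := by
  decide +kernel

theorem cF3_4_0_eq : Ls.beq (Ls.beq Ent.beq) (chunk JF (JF.lev 3 2) bsF3 tF 4 0 20) cF3_4_0 = true := by
  decide +kernel

theorem cF3_5_0_eq : Ls.beq (Ls.beq Ent.beq) (chunk JF (JF.lev 3 2) bsF3 tF 5 0 20) cF3_5_0 = true := by
  decide +kernel

theorem cF3_6_0_eq : Ls.beq (Ls.beq Ent.beq) (chunk JF (JF.lev 3 2) bsF3 tF 6 0 20) cF3_6_0 = true := by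
  decide +kernel

theorem cF3_7_0_eq : Ls.beq (Ls.beq Ent.beq) (chunk JF (JF.lev 3 2) bsF3 tF 7 0 20) cF3_7_0 = true := by
  decide +kernel

theorem cF3_8_0_eq : Ls.beq (Ls.beq Ent.beq) (chunk JF (JF.lev 3 2) bsF3 tF 8 0 20) cF3_8_0 = true := by
  decide +kernel

theorem cF3_9_0_eq : Ls.beq (Ls.beq Ent.beq) (chunk JF (JF.lev 3 2) bsF3 tF 9 0 20) cF3_9_0 = true := by
  decide +kernel

theorem cF3_10_0_eq : Ls.beq (Ls.beq Ent.beq) (chunk JF (JF.lev 3 2) bsF3 tF 10 0 20) cF3_10_0 = true := by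
  decide +kernel

theorem cF3_11_0_eq : Ls.beq (Ls.beq Ent.beq) (chunk JF (JF.lev 3 2) bsF3 tF 11 0 20) cF3_11_0 = true := by
  decide +kernel

theorem cF3_12_0_eq : Ls.beq (Ls.beq Ent.beq) (chunk JF (JF.lev 3 2) bsF3 tF 12 0 20) cF3_12_0 = true := by
  decide +kernel

theorem cF3_13_0_eq : Ls.beq (Ls.beq Ent.beq) (chunk JF (JF.lev 3 2) bsF3 tF 13 0 20) cF3_13_0 = true := by
  decide +kernel

theorem cF3_14_0_eq : Ls.beq (Ls.beq Ent.beq) (chunk JF (JF.lev 3 2) bsF3 tF 14 0 20) cF3_14_0 = true := by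
  decide +kernel


end Vale.Agent.P181.K
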