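import Vale.Agent.P181.Six.F.B6

set_option maxRecDepth 100000
set_option maxHeartbeats 0

namespace Vale.Agent.P181.K

theorem cF6_2_0_eq : Ls.beq (Ls.beq Ent.beq) (chunk JF (JF.lev 6 7) bsF6 tF 2 0 20) cF6_2_0 = true := by
  decide +kernel

theorem cF6_4_0_eq : Ls.beq (Ls.beq Ent.beq) (chunk JF (JF.lev 6 7) bsF6 tF 4 0 20) cF6_4_0 = true := by
  decide +kernel

theorem cF6_7_0_eq : Ls.beq (Ls.beq Ent.beq) (chunk JF (JF.lev 6 7) bsF6 tF 7 0 20) cF6_7_0 = true := by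
  decide +kernel

theorem cF6_10_0_eq : Ls.beq (Ls.beq Ent.beq) (chunk JF (JF.lev 6 7) bsF6 tF 10 0 20) cF6_10_0 = true := by
  decide +kernel

theorem cF6_12_0_eq : Ls.beq (Ls.beq Ent.beq) (chunk JF (JF.lev 6 7) bsF6 tF 12 0 20) cF6_12_0 = true := by
  decide +kernel


end Vale.Agent.P181.K
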