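import Vale.Agent.P181.Six.F.B7

set_option maxRecDepth 100000
set_option maxHeartbeats 0

namespace Vale.Agent.P181.K

theorem boxF7_eq : Ls.beq (Ls.beq (Ls.beq Ent.beq)) (mkBox JF tbF7) boxF7 = true := by
  decide +kernel

end Vale.Agent.P181.K
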